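import Mathlib
import Vale.Agent.Lib.P037.Defs
import Vale.Agent.Lib.P037.GamDefs
import Vale.Agent.Lib.P037.GamMain
import Vale.Agent.Lib.P037.AllDefs
import Vale.Agent.Lib.P037.AllMain

namespace Vale.Agent.Results.P037.AllTwoByTwo

open Vale.Agent.Lib.P037

/-- The polynomial ordered binary matrix-removal conjecture for `k = 2`: for EVERY `2 × 2` binary
pattern `H` there are constants `c > 0` and `C` such that every binary `n × n` matrix `A` with
`dist_H(A) ≥ ε`, `0 < ε < 1`, contains at least `c ε^C n^4` ordered copies of `H`. -/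
theorem result (H : Fin 2 → Fin 2 → Bool) :
    ∃ c : ℝ, 0 < c ∧ ∃ C : ℕ, ∀ (n : ℕ) (A : Fin n → Fin n → Bool) (ε : ℝ), 0 < ε → ε < 1 →
      IsFar H A ε → c * ε ^ C * (n : ℝ) ^ 4 ≤ (copyCount H A : ℝ) := by
  have hG : PolyRemoval G2 := by
    refine ⟨1 / 10 ^ 24, by positivity, 16, ?_⟩
    intro n A ε hε _ hfar
    have h := gam_removal A ε hε hfar
    have e : (1 : ℝ) / 10 ^ 24 * ε ^ 16 * (n : ℝ) ^ 4 = ε ^ 16 / 10 ^ 24 * (n : ℝ) ^ 4 := by ring
    rw [e]
    exact h
  exact all_two_by_two hG H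

end Vale.Agent.Results.P037.AllTwoByTwo
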