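import Mathlib
import Vale.Agent.Lib.P037.Defs
import Vale.Agent.Lib.P037.BlowDefs
import Vale.Agent.Lib.P037.BlowMain

namespace Vale.Agent.Results.P037.BlockPatterns

open Vale.Agent.Lib.P037

/-- Polynomial ordered matrix removal is closed under blow-ups, and holds for every square
pattern made of at most four constant blocks.

`PolyRemovalK H` is the statement of Q1 for the `k × k` pattern `H`: there are `c > 0` and `C`
such that every binary `n × n` matrix `A` with `dist_H(A) ≥ ε`, `0 < ε < 1`, has at least
`c ε^C n^(2k)` ordered copies of `H`.

First part: if `H` (of any size `k`) has this property, then so does every `m × m` pattern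
`(i, j) ↦ H (f i) (g j)` obtained by repeating rows and columns of `H` (`f`, `g` monotone and
onto). Second part: for every `k`, every `2 × 2` pattern `H₀` and all monotone
`f g : Fin k → Fin 2`, the `k × k` pattern `(i, j) ↦ H₀ (f i) (g j)` has the property. -/
theorem result :
    (∀ (k m : ℕ) (H : Fin k → Fin k → Bool) (f g : Fin m → Fin k), Monotone f → Monotone g →
      Function.Surjective f → Function.Surjective g → PolyRemovalK H →
      PolyRemovalK (fun i j => H (f i) (g j))) ∧
    (∀ (k : ℕ) (H₀ : Fin 2 → Fin 2 → Bool) (f g : Fin k → Fin 2), Monotone f → Monotone g →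
      PolyRemovalK (fun i j => H₀ (f i) (g j))) :=
  ⟨fun _ _ H f g hf hg hfs hgs h => blow_closure H h f g hf hg hfs hgs,
    fun _ H₀ f g hf hg => block_patterns H₀ f g hf hg⟩

end Vale.Agent.Results.P037.BlockPatterns
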