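import Mathlib
import Vale.Agent.Lib.P037.Defs
import Vale.Agent.Lib.P037.FewRows

namespace Vale.Agent.Results.P037.FewRowTypes

open Vale.Agent.Lib.P037

/-- Polynomial ordered removal for every `k × k` pattern `H` with pairwise distinct rows and
pairwise distinct columns, on host matrices `A` with few distinct rows: if `dist_H(A) ≥ ε` then
`N_H(A) ≥ (ε / (2 k m^k))^(2k) n^(2k)`, where `m` is the number of distinct rows of `A`. -/
theorem result {k n : ℕ} (hk : 1 ≤ k) (H : Fin k → Fin k → Bool)
    (hrows : Function.Injective H) (hcols : Function.Injective (fun j i => H i j))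
    (A : Fin n → Fin n → Bool) (ε : ℝ) (hε : 0 < ε) (hfar : IsFar H A ε) :
    (ε / (2 * (k : ℝ) * ((Finset.univ.image A).card : ℝ) ^ k)) ^ (2 * k) * (n : ℝ) ^ (2 * k) ≤
      (copyCount H A : ℝ) :=
  few_row_types hk H hrows hcols A ε hε hfar

end Vale.Agent.Results.P037.FewRowTypes
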