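import Mathlib
import Vale.Agent.Lib.P037.Defs
import Vale.Agent.Lib.P037.GamDefs
import Vale.Agent.Lib.P037.GamMain
import Vale.Agent.Lib.P037.BlowDefs
import Vale.Agent.Lib.P037.BlowMain
import Vale.Agent.Lib.P037.FewRows

namespace Vale.Agent.Results.P037.RemovalOmnibus

open Vale.Agent.Lib.P037

/-- Four results on polynomial ordered matrix removal, proved together.

`PolyRemovalK H` is the statement of Q1 for the `k × k` pattern `H`: there are `c > 0` and `C`
such that every binary `n × n` matrix `A` with `dist_H(A) ≥ ε`, `0 < ε < 1`, has at least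
`c ε^C n^(2k)` ordered copies of `H`.

(1) Closure under blow-ups: if `H` (of any size `k`) has this property, then so does every
`m × m` pattern `(i, j) ↦ H (f i) (g j)` obtained by repeating rows and columns of `H`
(`f`, `g` monotone and onto).

(2) For every `k`, every `2 × 2` pattern `H₀` and all monotone `f g : Fin k → Fin 2`, the
`k × k` pattern `(i, j) ↦ H₀ (f i) (g j)` has the property.

(3) Every `k × k` pattern `H` with pairwise distinct rows and pairwise distinct columns, on host
matrices `A` with few distinct rows: if `dist_H(A) ≥ ε` then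
`N_H(A) ≥ (ε / (2 k m^k))^(2k) n^(2k)`, where `m` is the number of distinct rows of `A`.

(4) Explicit constants for the `2 × 2` pattern with rows `(1,1)` and `(1,0)`, on all host
matrices: if `dist_H(A) ≥ ε` then `N_H(A) ≥ ε^16 / 10^24 * n^4`. -/
theorem result :
    (∀ (k m : ℕ) (H : Fin k → Fin k → Bool) (f g : Fin m → Fin k), Monotone f → Monotone g →
      Function.Surjective f → Function.Surjective g → PolyRemovalK H →
      PolyRemovalK (fun i j => H (f i) (g j))) ∧
    (∀ (k : ℕ) (H₀ : Fin 2 → Fin 2 → Bool) (f g : Fin k → Fin 2), Monotone f → Monotone g →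
      PolyRemovalK (fun i j => H₀ (f i) (g j))) ∧
    (∀ (k n : ℕ), 1 ≤ k → ∀ (H : Fin k → Fin k → Bool), Function.Injective H →
      Function.Injective (fun j i => H i j) →
      ∀ (A : Fin n → Fin n → Bool) (ε : ℝ), 0 < ε → IsFar H A ε →
      (ε / (2 * (k : ℝ) * ((Finset.univ.image A).card : ℝ) ^ k)) ^ (2 * k) * (n : ℝ) ^ (2 * k) ≤
        (copyCount H A : ℝ)) ∧
    (∀ (n : ℕ) (A : Fin n → Fin n → Bool) (ε : ℝ), 0 < ε →
      IsFar (![![true, true], ![true, false]] : Fin 2 → Fin 2 → Bool) A ε →
      ε ^ 16 / 10 ^ 24 * (n : ℝ) ^ 4 ≤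
        (copyCount (![![true, true], ![true, false]] : Fin 2 → Fin 2 → Bool) A : ℝ)) := by
  refine ⟨fun _ _ H f g hf hg hfs hgs h => blow_closure H h f g hf hg hfs hgs,
    fun _ H₀ f g hf hg => block_patterns H₀ f g hf hg,
    fun k n hk H hrows hcols A ε hε hfar => few_row_types hk H hrows hcols A ε hε hfar, ?_⟩
  intro n A ε hε hfar
  have h : (![![true, true], ![true, false]] : Fin 2 → Fin 2 → Bool) = gamPattern := by
    funext i j
    fin_cases i <;> fin_cases j <;> rfl
  rw [h] at hfar ⊢
  exact gam_removal A ε hε hfar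

end Vale.Agent.Results.P037.RemovalOmnibus
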